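import Vale.Agent.Lib.P034.Defs

/-!
Proof of the cluster theorem for P034: fractional covers supported on a family that is closed
under unions of intersecting pairs and has exponentially bounded local growth can be rounded.
-/

namespace Vale.Agent.Lib.P034

open Finset



/-- layer-cake: if all super-level sums of `d` are nonpositive, so is the `u`-weighted sum. -/
lemma layer_aux {ι : Type*} (s : Finset ι) (d : ι → ℝ) :
    ∀ (n : ℕ) (u : ι → ℝ), (∀ i ∈ s, 0 ≤ u i) → (s.filter (fun i => 0 < u i)).card ≤ n →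
      (∀ t : ℝ, 0 < t → ∑ i ∈ s.filter (fun i => t ≤ u i), d i ≤ 0) →
      ∑ i ∈ s, d i * u i ≤ 0 := by
  classical
  intro n
  induction n with
  | zero =>
    intro u hu hcard _
    have hz : ∀ i ∈ s, u i = 0 := by
      intro i hi
      have h0 : s.filter (fun i => 0 < u i) = ∅ := by
        exact Finset.card_eq_zero.mp (Nat.le_zero.mp hcard)
      by_contra hne
      have hpos : 0 < u i := lt_of_le_of_ne (hu i hi) (Ne.symm hne)
      have : i ∈ s.filter (fun i => 0 < u i) := Finset.mem_filter.mpr ⟨hi, hpos⟩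
      rw [h0] at this
      exact absurd this (Finset.notMem_empty i)
    apply le_of_eq
    apply Finset.sum_eq_zero
    intro i hi
    rw [hz i hi, mul_zero]
  | succ n ih =>
    intro u hu hcard hlev
    by_cases hP : (s.filter (fun i => 0 < u i)).Nonempty
    · obtain ⟨j, hj, hjmin⟩ := Finset.exists_min_image _ u hP
      have hjs : j ∈ s := (Finset.mem_filter.mp hj).1
      have hm : 0 < u j := (Finset.mem_filter.mp hj).2
      set m := u j with hmdef
      let u' : ι → ℝ := fun i => max (u i - m) 0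
      have hdecomp : ∀ i ∈ s, u i = u' i + (if m ≤ u i then m else 0) := by
        intro i hi
        by_cases h : m ≤ u i
        · simp only [u', h, if_true]
          rw [max_eq_left (by linarith)]
          ring
        · simp only [u', h, if_false]
          have hui : u i = 0 := by
            by_contra hne
            have hpos : 0 < u i := lt_of_le_of_ne (hu i hi) (Ne.symm hne)
            exact h (hjmin i (Finset.mem_filter.mpr ⟨hi, hpos⟩))
          rw [hui, max_eq_right (by linarith)]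
          ring
      have h1 : ∑ i ∈ s, d i * u i = ∑ i ∈ s, d i * u' i + m * ∑ i ∈ s.filter (fun i => m ≤ u i), d i := by
        rw [Finset.mul_sum, Finset.sum_filter, ← Finset.sum_add_distrib]
        apply Finset.sum_congr rfl
        intro i hi
        conv_lhs => rw [hdecomp i hi]
        by_cases h : m ≤ u i
        · simp only [h, if_true]; ring
        · simp only [h, if_false]; ring
      have h2 : ∑ i ∈ s, d i * u' i ≤ 0 := by
        apply ih u'
        · intro i _; exact le_max_right _ _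
        · have hsub : s.filter (fun i => 0 < u' i) ⊆ (s.filter (fun i => 0 < u i)).erase j := by
            intro i hi
            have hi' := Finset.mem_filter.mp hi
            have hgt : 0 < u i - m := by
              by_contra hcon
              have : u' i = 0 := max_eq_right (not_lt.mp hcon)
              linarith [hi'.2]
            refine Finset.mem_erase.mpr ⟨?_, Finset.mem_filter.mpr ⟨hi'.1, by linarith⟩⟩
            intro hij
            rw [hij] at hgt
            linarith
          have hc := Finset.card_le_card hsub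
          rw [Finset.card_erase_of_mem hj] at hc
          omega
        · intro t ht
          have : s.filter (fun i => t ≤ u' i) = s.filter (fun i => t + m ≤ u i) := by
            apply Finset.filter_congr
            intro i _
            constructor
            · intro h
              by_contra hcon
              have hcon' : u i - m < t := by linarith [not_le.mp hcon]
              have : u' i < t := max_lt hcon' ht
              linarith
            · intro h
              exact le_trans (by linarith) (le_max_left _ _)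
          rw [this]
          exact hlev (t + m) (by linarith)
      rw [h1]
      have h3 := hlev m hm
      nlinarith [mul_nonneg hm.le (neg_nonneg.mpr h3)]
    · apply ih u hu _ hlev
      rw [Finset.not_nonempty_iff_eq_empty] at hP
      rw [hP]; simp

lemma exists_level {ι : Type*} (s : Finset ι) (u a b : ι → ℝ) (hu : ∀ i ∈ s, 0 ≤ u i)
    (h : ∑ i ∈ s, b i * u i < ∑ i ∈ s, a i * u i) :
    ∃ t : ℝ, 0 < t ∧ ∑ i ∈ s.filter (fun i => t ≤ u i), b i < ∑ i ∈ s.filter (fun i => t ≤ u i), a i := by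
  by_contra hcon
  push Not at hcon
  have := layer_aux s (fun i => a i - b i) _ u hu le_rfl (by
    intro t ht
    rw [Finset.sum_sub_distrib]
    linarith [hcon t ht])
  simp only [sub_mul, Finset.sum_sub_distrib] at this
  linarith



/-- geometric tail estimate used for the sum over supersets. -/
lemma superset_sum {X : Type*} [DecidableEq X] (L : Finset (Finset X)) (B : ℝ) (hBpos : 0 < B)
    (hgrowth : ∀ (x : X) (m : ℕ), ((L.filter (fun R => x ∈ R ∧ R.card = m)).card : ℝ) ≤ B ^ m)
    (p : ℝ) (hp0 : 0 ≤ p) (hp1 : p ≤ 1) (S : Finset X) (hS : S.Nonempty) :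
    ∑ R ∈ L.filter (fun R => S ⊆ R), (p / (6 * B)) ^ R.card ≤ p ^ S.card / 5 := by
  obtain ⟨x, hx⟩ := hS
  set p' : ℝ := p / (6 * B) with hp'
  have hp'0 : 0 ≤ p' := by positivity
  set N := L.sup Finset.card with hN
  set A := L.filter (fun R => x ∈ R ∧ S.card ≤ R.card) with hA
  have h1 : ∑ R ∈ L.filter (fun R => S ⊆ R), p' ^ R.card ≤ ∑ R ∈ A, p' ^ R.card := by
    apply Finset.sum_le_sum_of_subset_of_nonneg
    · intro R hR
      have hR' := Finset.mem_filter.mp hR
      exact Finset.mem_filter.mpr ⟨hR'.1, hR'.2 hx, Finset.card_le_card hR'.2⟩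
    · intro R _ _; positivity
  have hmaps : ∀ R ∈ A, R.card ∈ Finset.Ico S.card (N + 1) := by
    intro R hR
    have hR' := Finset.mem_filter.mp hR
    refine Finset.mem_Ico.mpr ⟨hR'.2.2, Nat.lt_succ_of_le ?_⟩
    exact Finset.le_sup (f := Finset.card) hR'.1
  have h2 : ∑ R ∈ A, p' ^ R.card = ∑ m ∈ Finset.Ico S.card (N + 1), ∑ R ∈ A.filter (fun R => R.card = m), p' ^ R.card :=
    (Finset.sum_fiberwise_of_maps_to hmaps _).symm
  have h3 : ∀ m ∈ Finset.Ico S.card (N + 1), ∑ R ∈ A.filter (fun R => R.card = m), p' ^ R.card ≤ (p / 6) ^ m := by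
    intro m _
    have e1 : ∑ R ∈ A.filter (fun R => R.card = m), p' ^ R.card = ((A.filter (fun R => R.card = m)).card : ℝ) * p' ^ m := by
      rw [Finset.card_eq_sum_ones, Nat.cast_sum, Finset.sum_mul]
      apply Finset.sum_congr rfl
      intro R hR
      rw [(Finset.mem_filter.mp hR).2]; simp
    have e2 : (A.filter (fun R => R.card = m)).card ≤ (L.filter (fun R => x ∈ R ∧ R.card = m)).card := by
      refine Finset.card_le_card ?_
      intro R hR
      have hR1 := Finset.mem_filter.mp hR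
      have hR2 := Finset.mem_filter.mp hR1.1
      exact Finset.mem_filter.mpr ⟨hR2.1, hR2.2.1, hR1.2⟩
    have e3 : ((A.filter (fun R => R.card = m)).card : ℝ) ≤ (B : ℝ) ^ m :=
      le_trans (by exact_mod_cast e2) (hgrowth x m)
    rw [e1]
    calc ((A.filter (fun R => R.card = m)).card : ℝ) * p' ^ m ≤ (B : ℝ) ^ m * p' ^ m :=
          mul_le_mul_of_nonneg_right e3 (by positivity)
      _ = (p / 6) ^ m := by
          rw [← mul_pow, hp']
          congr 1
          field_simp
  have hr0 : 0 ≤ p / 6 := by positivity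
  have hr1 : p / 6 < 1 := by linarith
  have h4 := geom_sum_Ico_le_of_lt_one (m := S.card) (n := N + 1) hr0 hr1
  have hcard : 1 ≤ S.card := Finset.card_pos.mpr ⟨x, hx⟩
  have h5 : (p / 6) ^ S.card / (1 - p / 6) ≤ p ^ S.card / 5 := by
    have hps : 0 ≤ p ^ S.card := by positivity
    have h6 : (6 : ℝ) ≤ 6 ^ S.card := by
      calc (6 : ℝ) = 6 ^ 1 := by norm_num
        _ ≤ 6 ^ S.card := pow_le_pow_right₀ (by norm_num) hcard
    rw [div_pow, div_div, div_le_div_iff₀ (by nlinarith) (by norm_num)]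
    have h7 : (5 : ℝ) ≤ 6 ^ S.card * (1 - p / 6) := by nlinarith
    nlinarith
  calc ∑ R ∈ L.filter (fun R => S ⊆ R), p' ^ R.card ≤ ∑ R ∈ A, p' ^ R.card := h1
    _ = ∑ m ∈ Finset.Ico S.card (N + 1), ∑ R ∈ A.filter (fun R => R.card = m), p' ^ R.card := h2
    _ ≤ ∑ m ∈ Finset.Ico S.card (N + 1), (p / 6) ^ m := Finset.sum_le_sum h3
    _ ≤ (p / 6) ^ S.card / (1 - p / 6) := h4
    _ ≤ p ^ S.card / 5 := h5



/-- bound on an elementary symmetric sum. -/
lemma esymm_bound {ι : Type*} [DecidableEq ι] (s : Finset ι) (w : ι → ℝ) (hw : ∀ i ∈ s, 0 ≤ w i) (k : ℕ)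
    (hsum : 9 * ∑ i ∈ s, w i ≤ k) :
    ∑ T ∈ s.powersetCard k, ∏ i ∈ T, w i ≤ (1 / 3) ^ k := by
  have h1 : (9 : ℝ) ^ k * ∑ T ∈ s.powersetCard k, ∏ i ∈ T, w i = ∑ T ∈ s.powersetCard k, ∏ i ∈ T, (9 * w i) := by
    rw [Finset.mul_sum]
    apply Finset.sum_congr rfl
    intro T hT
    rw [Finset.prod_mul_distrib, Finset.prod_const, (Finset.mem_powersetCard.mp hT).2]
  have h2 : ∑ T ∈ s.powersetCard k, ∏ i ∈ T, (9 * w i) ≤ ∑ T ∈ s.powerset, ∏ i ∈ T, (9 * w i) := by
    apply Finset.sum_le_sum_of_subset_of_nonneg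
    · intro T hT
      exact Finset.mem_powerset.mpr (Finset.mem_powersetCard.mp hT).1
    · intro T hT _
      apply Finset.prod_nonneg
      intro i hi
      have := hw i (Finset.mem_powerset.mp hT hi)
      positivity
  have h3 : ∑ T ∈ s.powerset, ∏ i ∈ T, (9 * w i) = ∏ i ∈ s, (1 + 9 * w i) := (Finset.prod_one_add s).symm
  have h4 : ∏ i ∈ s, (1 + 9 * w i) ≤ ∏ i ∈ s, Real.exp (9 * w i) := by
    apply Finset.prod_le_prod
    · intro i hi
      have := hw i hi
      positivity
    · intro i _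
      linarith [Real.add_one_le_exp (9 * w i)]
  have h5 : ∏ i ∈ s, Real.exp (9 * w i) = Real.exp (9 * ∑ i ∈ s, w i) := by
    rw [Finset.mul_sum, Real.exp_sum]
  have h6 : Real.exp (9 * ∑ i ∈ s, w i) ≤ 3 ^ k := by
    calc Real.exp (9 * ∑ i ∈ s, w i) ≤ Real.exp (k : ℝ) := Real.exp_le_exp.mpr hsum
      _ = Real.exp 1 ^ k := by rw [← Real.exp_nat_mul]; simp
      _ ≤ 3 ^ k := by
          apply pow_le_pow_left₀ (Real.exp_pos 1).le
          linarith [Real.exp_one_lt_d9]
  have h7 : (9 : ℝ) ^ k * ∑ T ∈ s.powersetCard k, ∏ i ∈ T, w i ≤ 3 ^ k := by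
    rw [h1]; linarith [h2, h3, h4, h5, h6]
  have h9 : (0 : ℝ) < 9 ^ k := by positivity
  have h8 : (1 / 3 : ℝ) ^ k = 3 ^ k / 9 ^ k := by
    rw [← div_pow]; norm_num
  rw [h8, le_div_iff₀ h9]
  linarith

lemma geom_third (N : ℕ) : ∑ k ∈ Finset.Ico 1 (N + 1), (1 / 3 : ℝ) ^ k ≤ 1 / 2 := by
  have := geom_sum_Ico_le_of_lt_one (K := ℝ) (x := 1 / 3) (m := 1) (n := N + 1) (by norm_num) (by norm_num)
  norm_num at this ⊢
  linarith


section core

variable {X : Type*} [DecidableEq X]

/-- the maximal members of `L` contained in `H`. -/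
noncomputable def maxIn (L : Finset (Finset X)) (H : Finset X) : Finset (Finset X) := by
  classical
  exact L.filter (fun R => R ⊆ H ∧ ∀ R' ∈ L, R' ⊆ H → R ⊆ R' → R' = R)

lemma mem_maxIn {L : Finset (Finset X)} {H R : Finset X} :
    R ∈ maxIn L H ↔ R ∈ L ∧ R ⊆ H ∧ ∀ R' ∈ L, R' ⊆ H → R ⊆ R' → R' = R := by
  classical
  unfold maxIn
  rw [Finset.mem_filter]

lemma maxIn_disjoint {L : Finset (Finset X)} {H : Finset X}
    (hunion : ∀ R ∈ L, ∀ R' ∈ L, (R ∩ R').Nonempty → R ∪ R' ∈ L) :
    ((maxIn L H : Finset (Finset X)) : Set (Finset X)).PairwiseDisjoint id := by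
  intro R hR R' hR' hne
  have h1 := mem_maxIn.mp (Finset.mem_coe.mp hR)
  have h2 := mem_maxIn.mp (Finset.mem_coe.mp hR')
  simp only [Function.onFun, id]
  by_contra hnd
  rw [Finset.not_disjoint_iff_nonempty_inter] at hnd
  have hU := hunion R h1.1 R' h2.1 hnd
  have hUH : R ∪ R' ⊆ H := Finset.union_subset h1.2.1 h2.2.1
  have e1 := h1.2.2 _ hU hUH Finset.subset_union_left
  have e2 := h2.2.2 _ hU hUH Finset.subset_union_right
  exact hne (e1.symm.trans e2)

lemma exists_maxIn {L : Finset (Finset X)} {H S : Finset X} (hS : S ∈ L) (hSH : S ⊆ H) :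
    ∃ R ∈ maxIn L H, S ⊆ R := by
  classical
  have hmem : S ∈ L.filter (fun R => R ⊆ H) := Finset.mem_filter.mpr ⟨hS, hSH⟩
  obtain ⟨R, hSR, hR⟩ := Finset.exists_le_maximal _ hmem
  refine ⟨R, ?_, hSR⟩
  have hR1 := Finset.mem_filter.mp hR.prop
  refine mem_maxIn.mpr ⟨hR1.1, hR1.2, ?_⟩
  intro R' hR' hR'H hRR'
  have := hR.le_of_ge (Finset.mem_filter.mpr ⟨hR', hR'H⟩) hRR'
  exact le_antisymm this hRR'

lemma swap_sum (L : Finset (Finset X)) (w g : Finset X → ℝ) :
    ∑ R ∈ L, w R * ∑ S ∈ L.filter (fun S => S ⊆ R), g S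
      = ∑ S ∈ L, g S * ∑ R ∈ L.filter (fun R => S ⊆ R), w R := by
  simp only [Finset.mul_sum, Finset.sum_filter]
  rw [Finset.sum_comm]
  apply Finset.sum_congr rfl
  intro S _
  apply Finset.sum_congr rfl
  intro R _
  by_cases h : S ⊆ R
  · simp only [h, if_true]; ring
  · simp only [h, if_false, mul_zero]

lemma sum_L_le [Fintype X] (L : Finset (Finset X)) (hne : ∀ R ∈ L, R.Nonempty) (g : Finset X → ℝ)
    (hg : ∀ S, 0 ≤ g S) (p : ℝ) (hp0 : 0 ≤ p) :
    ∑ S ∈ L, g S * p ^ S.card ≤ fracCost g p - g ∅ := by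
  unfold fracCost
  have h1 : g ∅ * p ^ (∅ : Finset X).card + ∑ S ∈ (Finset.univ : Finset (Finset X)).erase ∅, g S * p ^ S.card
      = ∑ S : Finset X, g S * p ^ S.card :=
    Finset.add_sum_erase _ (fun S : Finset X => g S * p ^ S.card) (Finset.mem_univ ∅)
  have h2 : ∑ S ∈ L, g S * p ^ S.card ≤ ∑ S ∈ (Finset.univ : Finset (Finset X)).erase ∅, g S * p ^ S.card := by
    apply Finset.sum_le_sum_of_subset_of_nonneg
    · intro S hS
      exact Finset.mem_erase.mpr ⟨(hne S hS).ne_empty, Finset.mem_univ _⟩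
    · intro S _ _
      exact mul_nonneg (hg S) (by positivity)
  simp only [Finset.card_empty, pow_zero, mul_one] at h1
  linarith

lemma powerset_sum_le (L : Finset (Finset X)) (g : Finset X → ℝ) (hg : ∀ S, 0 ≤ g S)
    (hsupp : ∀ S, g S ≠ 0 → S = ∅ ∨ S ∈ L) (H : Finset X) :
    ∑ S ∈ H.powerset, g S ≤ g ∅ + ∑ S ∈ L.filter (fun S => S ⊆ H), g S := by
  have h1 : g ∅ + ∑ S ∈ H.powerset.erase ∅, g S = ∑ S ∈ H.powerset, g S :=
    Finset.add_sum_erase _ _ (Finset.empty_mem_powerset H)
  have h2 : ∑ S ∈ H.powerset.erase ∅, g S ≤ ∑ S ∈ L.filter (fun S => S ⊆ H), g S := by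
    rw [← Finset.sum_filter_ne_zero]
    apply Finset.sum_le_sum_of_subset_of_nonneg
    · intro S hS
      have hS1 := Finset.mem_filter.mp hS
      have hS2 := Finset.mem_erase.mp hS1.1
      rcases hsupp S hS1.2 with h | h
      · exact absurd h hS2.1
      · exact Finset.mem_filter.mpr ⟨h, Finset.mem_powerset.mp hS2.2⟩
    · intro S _ _; exact hg S
  linarith

lemma sum_le_maxIn (L : Finset (Finset X)) (g : Finset X → ℝ) (hg : ∀ S, 0 ≤ g S) (H : Finset X) :
    ∑ S ∈ L.filter (fun S => S ⊆ H), g S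
      ≤ ∑ R ∈ maxIn L H, ∑ S ∈ L.filter (fun S => S ⊆ R), g S := by
  simp only [Finset.sum_filter]
  rw [Finset.sum_comm]
  apply Finset.sum_le_sum
  intro S hS
  by_cases h : S ⊆ H
  · simp only [h, if_true]
    obtain ⟨R, hR, hSR⟩ := exists_maxIn hS h
    have : (if S ⊆ R then g S else 0) ≤ ∑ R ∈ maxIn L H, (if S ⊆ R then g S else 0) :=
      Finset.single_le_sum (f := fun R => if S ⊆ R then g S else 0)
        (fun R _ => by
          by_cases h' : S ⊆ R
          · simp only [h', if_true]; exact hg S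
          · simp only [h', if_false]; exact le_rfl) hR
    simpa only [hSR, if_true] using this
  · simp only [h, if_false]
    apply Finset.sum_nonneg
    intro R _
    by_cases h' : S ⊆ R
    · simp only [h', if_true]; exact hg S
    · simp only [h', if_false]; exact le_rfl


theorem cluster_core [Fintype X]
    (F L : Finset (Finset X)) (B : ℝ) (hBpos : 0 < B)
    (hne : ∀ R ∈ L, R.Nonempty)
    (hunion : ∀ R ∈ L, ∀ R' ∈ L, (R ∩ R').Nonempty → R ∪ R' ∈ L)
    (hgrowth : ∀ (x : X) (m : ℕ), ((L.filter (fun R => x ∈ R ∧ R.card = m)).card : ℝ) ≤ B ^ m)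
    (g : Finset X → ℝ) (hg : IsFracCover g F)
    (hsupp : ∀ S, g S ≠ 0 → S = ∅ ∨ S ∈ L)
    (p : ℝ) (hp0 : 0 ≤ p) (hp1 : p ≤ 1) (hcost : fracCost g p ≤ 1 / 2) :
    IsSmall F (p / (6 * B)) := by
  classical
  set p' : ℝ := p / (6 * B) with hp'
  have hp'0 : 0 ≤ p' := by positivity
  set w : Finset X → ℝ := fun R => p' ^ R.card with hw
  have hw0 : ∀ R, 0 ≤ w R := fun R => by simp only [hw]; positivity
  set gh : Finset X → ℝ := fun R => ∑ S ∈ L.filter (fun S => S ⊆ R), g S with hgh
  have hgh0 : ∀ R, 0 ≤ gh R := fun R => Finset.sum_nonneg (fun S _ => hg.nonneg S)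
  set W : ℝ → ℝ := fun s => ∑ R ∈ L.filter (fun R => s ≤ gh R), w R with hW
  have hW0 : ∀ s, 0 ≤ W s := fun s => Finset.sum_nonneg (fun R _ => hw0 R)
  have hWanti : ∀ s s', s ≤ s' → W s' ≤ W s := by
    intro s s' hss
    apply Finset.sum_le_sum_of_subset_of_nonneg
    · intro R hR
      have hR' := Finset.mem_filter.mp hR
      exact Finset.mem_filter.mpr ⟨hR'.1, le_trans hss hR'.2⟩
    · intro R _ _; exact hw0 R
  set Bk : ℕ → Finset (Finset X) := fun k => L.filter (fun R => 9 * W (gh R) < k) with hBk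
  set N := L.card with hN
  set fam : ℕ → Finset (Finset (Finset X)) := fun k =>
    ((Bk k).powersetCard k).filter (fun T => (T : Set (Finset X)).PairwiseDisjoint id) with hfam
  set G : Finset (Finset X) :=
    ((Finset.Ico 1 (N + 1)).sigma fam).image (fun kT => kT.2.biUnion id) with hG
  -- total weight of `Bk k`
  have hBksum : ∀ k : ℕ, 9 * ∑ R ∈ Bk k, w R ≤ k := by
    intro k
    by_cases hemp : (Bk k).Nonempty
    · obtain ⟨R0, hR0, hmin⟩ := Finset.exists_min_image (Bk k) gh hemp
      have hsub : ∑ R ∈ Bk k, w R ≤ W (gh R0) := by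
        apply Finset.sum_le_sum_of_subset_of_nonneg
        · intro R hR
          exact Finset.mem_filter.mpr ⟨(Finset.mem_filter.mp hR).1, hmin R hR⟩
        · intro R _ _; exact hw0 R
      have := (Finset.mem_filter.mp hR0).2
      linarith
    · rw [Finset.not_nonempty_iff_eq_empty] at hemp
      rw [hemp]; simp
  refine ⟨G, ?_, ?_⟩
  · -- covering
    intro H hH
    set M := maxIn L H with hM
    have hlt : ∑ R ∈ L, (9 * w R) * gh R < ∑ R ∈ L, (if R ∈ M then (1 : ℝ) else 0) * gh R := by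
      have e1 : ∑ R ∈ L, (9 * w R) * gh R = 9 * ∑ S ∈ L, g S * ∑ R ∈ L.filter (fun R => S ⊆ R), w R := by
        rw [← swap_sum, Finset.mul_sum]
        apply Finset.sum_congr rfl
        intro R _
        ring
      have e2 : ∑ S ∈ L, g S * ∑ R ∈ L.filter (fun R => S ⊆ R), w R ≤ ∑ S ∈ L, g S * (p ^ S.card / 5) := by
        apply Finset.sum_le_sum
        intro S hS
        exact mul_le_mul_of_nonneg_left
          (superset_sum L B hBpos hgrowth p hp0 hp1 S (hne S hS)) (hg.nonneg S)
      have e3 : ∑ S ∈ L, g S * (p ^ S.card / 5) = (∑ S ∈ L, g S * p ^ S.card) / 5 := by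
        rw [Finset.sum_div]
        apply Finset.sum_congr rfl
        intro S _
        ring
      have e4 := sum_L_le L hne g hg.nonneg p hp0
      have e5 : ∑ R ∈ L, (if R ∈ M then (1 : ℝ) else 0) * gh R = ∑ R ∈ M, gh R := by
        have hML : M ⊆ L := fun R hR => (mem_maxIn.mp hR).1
        rw [← Finset.sum_subset hML (f := fun R => (if R ∈ M then (1 : ℝ) else 0) * gh R)]
        · apply Finset.sum_congr rfl
          intro R hR
          simp only [hR, if_true, one_mul]
        · intro R _ hR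
          simp only [hR, if_false, zero_mul]
      have e6 := sum_le_maxIn L g hg.nonneg H
      have e7 := powerset_sum_le L g hg.nonneg hsupp H
      have e8 := hg.covers H hH
      have e9 := hg.nonneg ∅
      rw [e1, e5]
      have e10 : ∑ S ∈ L.filter (fun S => S ⊆ H), g S ≤ ∑ R ∈ M, gh R := e6
      linarith
    obtain ⟨t, ht, hlev⟩ := exists_level L gh (fun R => if R ∈ M then (1 : ℝ) else 0) (fun R => 9 * w R)
      (fun R _ => hgh0 R) hlt
    set T := M.filter (fun R => t ≤ gh R) with hT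
    have hTcard : ∑ R ∈ L.filter (fun R => t ≤ gh R), (if R ∈ M then (1 : ℝ) else 0) = (T.card : ℝ) := by
      rw [← Finset.sum_filter, Finset.sum_const, nsmul_eq_mul, mul_one]
      congr 2
      ext R
      simp only [Finset.mem_filter, hT]
      constructor
      · rintro ⟨⟨_, h2⟩, h3⟩; exact ⟨h3, h2⟩
      · rintro ⟨h3, h2⟩; exact ⟨⟨(mem_maxIn.mp h3).1, h2⟩, h3⟩
    have hWt : 9 * W t < T.card := by
      rw [← hTcard]
      have : ∑ R ∈ L.filter (fun R => t ≤ gh R), 9 * w R = 9 * W t := by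
        rw [hW, Finset.mul_sum]
      linarith
    have hTL : T ⊆ L := fun R hR => (mem_maxIn.mp (Finset.mem_filter.mp hR).1).1
    have hk1 : 1 ≤ T.card := by
      have : (0 : ℝ) < T.card := lt_of_le_of_lt (by have := hW0 t; positivity) hWt
      exact_mod_cast this
    have hkN : T.card ≤ N := Finset.card_le_card hTL
    have hTB : T ⊆ Bk T.card := by
      intro R hR
      have hR' := Finset.mem_filter.mp hR
      refine Finset.mem_filter.mpr ⟨hTL hR, ?_⟩
      have := hWanti t (gh R) hR'.2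
      linarith
    have hTdisj : (T : Set (Finset X)).PairwiseDisjoint id := by
      apply (maxIn_disjoint (H := H) hunion).subset
      intro R hR
      exact Finset.mem_coe.mpr (Finset.mem_filter.mp (Finset.mem_coe.mp hR)).1
    refine ⟨T.biUnion id, ?_, ?_⟩
    · refine Finset.mem_image.mpr ⟨⟨T.card, T⟩, ?_, rfl⟩
      refine Finset.mem_sigma.mpr ⟨Finset.mem_Ico.mpr ⟨hk1, Nat.lt_succ_of_le hkN⟩, ?_⟩
      exact Finset.mem_filter.mpr ⟨Finset.mem_powersetCard.mpr ⟨hTB, rfl⟩, hTdisj⟩
    · intro x hx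
      obtain ⟨R, hR, hxR⟩ := Finset.mem_biUnion.mp hx
      exact (mem_maxIn.mp (Finset.mem_filter.mp hR).1).2.1 hxR
  · -- cost
    unfold cost
    have c1 : ∑ S ∈ G, p' ^ S.card ≤ ∑ kT ∈ (Finset.Ico 1 (N + 1)).sigma fam, p' ^ (kT.2.biUnion id).card := by
      apply Finset.sum_image_le_of_nonneg
      intro S _; positivity
    have c2 : ∑ kT ∈ (Finset.Ico 1 (N + 1)).sigma fam, p' ^ (kT.2.biUnion id).card
        = ∑ k ∈ Finset.Ico 1 (N + 1), ∑ T ∈ fam k, p' ^ (T.biUnion id).card := by
      rw [Finset.sum_sigma]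
    have c3 : ∀ k ∈ Finset.Ico 1 (N + 1), ∑ T ∈ fam k, p' ^ (T.biUnion id).card ≤ (1 / 3 : ℝ) ^ k := by
      intro k _
      have d1 : ∑ T ∈ fam k, p' ^ (T.biUnion id).card = ∑ T ∈ fam k, ∏ R ∈ T, w R := by
        apply Finset.sum_congr rfl
        intro T hT
        have hdisj := (Finset.mem_filter.mp hT).2
        rw [Finset.card_biUnion hdisj, Finset.prod_pow_eq_pow_sum]
        rfl
      have d2 : ∑ T ∈ fam k, ∏ R ∈ T, w R ≤ ∑ T ∈ (Bk k).powersetCard k, ∏ R ∈ T, w R := by
        apply Finset.sum_le_sum_of_subset_of_nonneg (Finset.filter_subset _ _)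
        intro T _ _
        exact Finset.prod_nonneg (fun R _ => hw0 R)
      have d3 := esymm_bound (Bk k) w (fun R _ => hw0 R) k (hBksum k)
      linarith
    calc ∑ S ∈ G, p' ^ S.card ≤ ∑ k ∈ Finset.Ico 1 (N + 1), ∑ T ∈ fam k, p' ^ (T.biUnion id).card := by
          rw [← c2]; exact c1
      _ ≤ ∑ k ∈ Finset.Ico 1 (N + 1), (1 / 3 : ℝ) ^ k := Finset.sum_le_sum c3
      _ ≤ 1 / 2 := geom_third N

/-- The cluster theorem, allowing the empty set in `L`. -/
theorem cluster_main [Fintype X]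
    (F L : Finset (Finset X)) (B : ℝ) (hBpos : 0 < B)
    (hunion : ∀ R ∈ L, ∀ R' ∈ L, (R ∩ R').Nonempty → R ∪ R' ∈ L)
    (hgrowth : ∀ (x : X) (m : ℕ), ((L.filter (fun R => x ∈ R ∧ R.card = m)).card : ℝ) ≤ B ^ m)
    (g : Finset X → ℝ) (hg : IsFracCover g F)
    (hsupp : ∀ S, g S ≠ 0 → S ∈ L)
    (p : ℝ) (hp0 : 0 ≤ p) (hp1 : p ≤ 1) (hcost : fracCost g p ≤ 1 / 2) :
    IsSmall F (p / (6 * B)) := by
  classical
  apply cluster_core F (L.erase ∅) B hBpos _ _ _ g hg _ p hp0 hp1 hcost
  · intro R hR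
    exact Finset.nonempty_iff_ne_empty.mpr (Finset.mem_erase.mp hR).1
  · intro R hR R' hR' hne
    refine Finset.mem_erase.mpr ⟨?_, hunion R (Finset.mem_erase.mp hR).2 R' (Finset.mem_erase.mp hR').2 hne⟩
    obtain ⟨x, hx⟩ := hne
    exact Finset.nonempty_iff_ne_empty.mp ⟨x, Finset.mem_union_left _ (Finset.mem_inter.mp hx).1⟩
  · intro x m
    refine le_trans ?_ (hgrowth x m)
    have : ((L.erase ∅).filter (fun R => x ∈ R ∧ R.card = m)).card
        ≤ (L.filter (fun R => x ∈ R ∧ R.card = m)).card :=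
      Finset.card_le_card (Finset.filter_subset_filter _ (Finset.erase_subset _ _))
    exact_mod_cast this
  · intro S hS
    by_cases h : S = ∅
    · exact Or.inl h
    · exact Or.inr (Finset.mem_erase.mpr ⟨h, hsupp S hS⟩)

end core

end Vale.Agent.Lib.P034
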