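import Vale.Agent.Lib.P034.Cluster

/-!
Counting connected vertex sets of a bounded degree graph, and the resulting special case of the
cluster theorem.
-/

namespace Vale.Agent.Lib.P034

open Finset

section conn

variable {X : Type*} [Fintype X] [DecidableEq X] (Γ : SimpleGraph X) [DecidableRel Γ.Adj]

/-- vertex sets of walks of length `l` starting at `x`. -/
def walkSupp : ℕ → X → Finset (Finset X)
  | 0, x => {{x}}
  | (l + 1), x => (Γ.neighborFinset x).biUnion (fun y => (walkSupp l y).image (insert x))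

lemma card_walkSupp_le (D : ℕ) (hdeg : ∀ v, Γ.degree v ≤ D) :
    ∀ (l : ℕ) (x : X), (walkSupp Γ l x).card ≤ D ^ l := by
  intro l
  induction l with
  | zero => intro x; simp [walkSupp]
  | succ l ih =>
    intro x
    simp only [walkSupp]
    calc ((Γ.neighborFinset x).biUnion (fun y => (walkSupp Γ l y).image (insert x))).card
        ≤ ∑ y ∈ Γ.neighborFinset x, ((walkSupp Γ l y).image (insert x)).card := Finset.card_biUnion_le
      _ ≤ ∑ _y ∈ Γ.neighborFinset x, D ^ l :=
          Finset.sum_le_sum (fun y _ => le_trans Finset.card_image_le (ih y))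
      _ = Γ.degree x * D ^ l := by
          rw [Finset.sum_const, smul_eq_mul, SimpleGraph.card_neighborFinset_eq_degree]
      _ ≤ D * D ^ l := Nat.mul_le_mul_right _ (hdeg x)
      _ = D ^ (l + 1) := by ring

lemma mem_walkSupp_succ {l : ℕ} {x : X} {R : Finset X} :
    R ∈ walkSupp Γ (l + 1) x ↔ ∃ y, Γ.Adj x y ∧ ∃ R' ∈ walkSupp Γ l y, insert x R' = R := by
  simp only [walkSupp, Finset.mem_biUnion, Finset.mem_image, SimpleGraph.mem_neighborFinset]

lemma start_mem_walkSupp : ∀ (l : ℕ) (x : X) (R : Finset X), R ∈ walkSupp Γ l x → x ∈ R := by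
  intro l
  cases l with
  | zero =>
    intro x R hR
    simp only [walkSupp, Finset.mem_singleton] at hR
    rw [hR]; exact Finset.mem_singleton_self x
  | succ l =>
    intro x R hR
    obtain ⟨y, _, R', _, rfl⟩ := (mem_walkSupp_succ Γ).mp hR
    exact Finset.mem_insert_self _ _

/-- a detour `v → u → v` can be spliced into a walk. -/
lemma splice : ∀ (l : ℕ) (x : X) (R : Finset X), R ∈ walkSupp Γ l x → ∀ v ∈ R, ∀ u, Γ.Adj v u →
    insert u R ∈ walkSupp Γ (l + 2) x := by
  -- the detour at the starting vertex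
  have hstart : ∀ (l : ℕ) (x : X) (R : Finset X), R ∈ walkSupp Γ l x → ∀ u, Γ.Adj x u →
      insert u R ∈ walkSupp Γ (l + 2) x := by
    intro l x R hR u hxu
    have hxR := start_mem_walkSupp Γ l x R hR
    refine (mem_walkSupp_succ Γ).mpr ⟨u, hxu, insert u R, ?_, ?_⟩
    · exact (mem_walkSupp_succ Γ).mpr ⟨x, hxu.symm, R, hR, rfl⟩
    · exact Finset.insert_eq_of_mem (Finset.mem_insert_of_mem hxR)
  intro l
  induction l with
  | zero =>
    intro x R hR v hv u hvu
    have hR' : R = {x} := by simpa only [walkSupp, Finset.mem_singleton] using hR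
    have hvx : v = x := by rw [hR'] at hv; exact Finset.mem_singleton.mp hv
    exact hstart 0 x R hR u (hvx ▸ hvu)
  | succ l ih =>
    intro x R hR v hv u hvu
    obtain ⟨y, hxy, R', hR', rfl⟩ := (mem_walkSupp_succ Γ).mp hR
    rcases Finset.mem_insert.mp hv with hvx | hvR'
    · exact hstart (l + 1) x _ hR u (hvx ▸ hvu)
    · refine (mem_walkSupp_succ Γ).mpr ⟨y, hxy, insert u R', ih y R' hR' v hvR' u hvu, ?_⟩
      exact Finset.insert_comm _ _ _

/-- a connected set is grown from `x` one vertex at a time. -/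
lemma grow (R : Finset X) (hconn : (Γ.induce (R : Set X)).Connected) (x : X) (hx : x ∈ R) :
    ∀ j : ℕ, j < R.card → ∃ R' ⊆ R, R'.card = j + 1 ∧ R' ∈ walkSupp Γ (2 * j) x := by
  intro j
  induction j with
  | zero =>
    intro _
    exact ⟨{x}, Finset.singleton_subset_iff.mpr hx, Finset.card_singleton x, by simp [walkSupp]⟩
  | succ j ih =>
    intro hj
    obtain ⟨R', hsub, hcard, hw⟩ := ih (by omega)
    have hxR' := start_mem_walkSupp Γ _ x R' hw
    have hss : ∃ z ∈ R, z ∉ R' := by
      by_contra hcon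
      push Not at hcon
      have := Finset.card_le_card (fun z hz => hcon z hz : R ⊆ R')
      omega
    obtain ⟨z, hzR, hzR'⟩ := hss
    obtain ⟨q⟩ := hconn.preconnected ⟨x, Finset.mem_coe.mpr hx⟩ ⟨z, Finset.mem_coe.mpr hzR⟩
    obtain ⟨d, _, hd1, hd2⟩ := q.exists_boundary_dart {a | a.1 ∈ R'} hxR' hzR'
    have hadj : Γ.Adj d.toProd.1.1 d.toProd.2.1 := SimpleGraph.induce_adj.mp d.adj
    refine ⟨insert d.toProd.2.1 R', ?_, ?_, ?_⟩
    · exact Finset.insert_subset (Finset.mem_coe.mp d.toProd.2.2) hsub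
    · rw [Finset.card_insert_of_notMem hd2, hcard]
    · have := splice Γ (2 * j) x R' hw d.toProd.1.1 hd1 d.toProd.2.1 hadj
      have e : 2 * (j + 1) = 2 * j + 2 := by ring
      rw [e]; exact this

lemma connected_mem_walkSupp (R : Finset X) (hconn : (Γ.induce (R : Set X)).Connected) (x : X)
    (hx : x ∈ R) : R ∈ walkSupp Γ (2 * (R.card - 1)) x := by
  have hpos : 0 < R.card := Finset.card_pos.mpr ⟨x, hx⟩
  obtain ⟨R', hsub, hcard, hw⟩ := grow Γ R hconn x hx (R.card - 1) (by omega)
  have : R' = R := Finset.eq_of_subset_of_card_le hsub (by omega)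
  rw [this] at hw
  exact hw

/-- the family of connected vertex sets. -/
noncomputable def connSets : Finset (Finset X) := by
  classical
  exact Finset.univ.filter (fun R : Finset X => (Γ.induce (R : Set X)).Connected)

lemma mem_connSets {R : Finset X} : R ∈ connSets Γ ↔ (Γ.induce (R : Set X)).Connected := by
  classical
  unfold connSets
  simp

lemma card_connSets_le (D : ℕ) (hD : 1 ≤ D) (hdeg : ∀ v, Γ.degree v ≤ D) (x : X) (m : ℕ) :
    (((connSets Γ).filter (fun R => x ∈ R ∧ R.card = m)).card : ℝ) ≤ ((D : ℝ) ^ 2) ^ m := by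
  have h1 : (connSets Γ).filter (fun R => x ∈ R ∧ R.card = m) ⊆ walkSupp Γ (2 * (m - 1)) x := by
    intro R hR
    obtain ⟨hR1, hxR, hcard⟩ := Finset.mem_filter.mp hR
    have := connected_mem_walkSupp Γ R ((mem_connSets Γ).mp hR1) x hxR
    rw [hcard] at this
    exact this
  have h2 : ((connSets Γ).filter (fun R => x ∈ R ∧ R.card = m)).card ≤ D ^ (2 * (m - 1)) :=
    le_trans (Finset.card_le_card h1) (card_walkSupp_le Γ D hdeg _ x)
  have h3 : D ^ (2 * (m - 1)) ≤ (D ^ 2) ^ m := by
    rw [← pow_mul]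
    exact Nat.pow_le_pow_right hD (by omega)
  exact_mod_cast le_trans h2 h3

theorem connected_main (D : ℕ) (hD : 1 ≤ D) (hdeg : ∀ v, Γ.degree v ≤ D)
    (F : Finset (Finset X)) (g : Finset X → ℝ) (hg : IsFracCover g F)
    (hsupp : ∀ S, g S ≠ 0 → S = ∅ ∨ (Γ.induce (S : Set X)).Connected)
    (p : ℝ) (hp0 : 0 ≤ p) (hp1 : p ≤ 1) (hcost : fracCost g p ≤ 1 / 2) :
    IsSmall F (p / (6 * (D : ℝ) ^ 2)) := by
  classical
  have hDpos : (0 : ℝ) < (D : ℝ) ^ 2 := by
    have : (0 : ℝ) < D := by exact_mod_cast hD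
    positivity
  apply cluster_core F (connSets Γ) ((D : ℝ) ^ 2) hDpos _ _ (card_connSets_le Γ D hD hdeg) g hg _ p hp0 hp1 hcost
  · intro R hR
    have := ((mem_connSets Γ).mp hR).nonempty
    obtain ⟨a⟩ := this
    exact ⟨a.1, Finset.mem_coe.mp a.2⟩
  · intro R hR R' hR' hne
    refine (mem_connSets Γ).mpr ?_
    have h1 := ((mem_connSets Γ).mp hR).preconnected
    have h2 := ((mem_connSets Γ).mp hR').preconnected
    have h3 : ((R : Set X) ∩ (R' : Set X)).Nonempty := by
      obtain ⟨a, ha⟩ := hne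
      exact ⟨a, Finset.mem_coe.mpr (Finset.mem_inter.mp ha).1, Finset.mem_coe.mpr (Finset.mem_inter.mp ha).2⟩
    have := SimpleGraph.induce_union_connected h1 h2 h3
    rwa [← Finset.coe_union] at this
  · intro S hS
    rcases hsupp S hS with h | h
    · exact Or.inl h
    · exact Or.inr ((mem_connSets Γ).mpr h)

end conn

end Vale.Agent.Lib.P034
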