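import Vale.Agent.Lib.P034.Defs
import Vale.Agent.Lib.P064.Forest.Final

/-!
P034: Talagrand's conjecture for the increasing family of graphs on `Fin n` containing a copy of a
given graph `H`, when `H` is a forest (universal constant) or has bounded degree.
-/

open SimpleGraph Finset
open scoped Classical

namespace Vale.Agent.Lib.P034

open Vale.Agent.Lib.P064 Vale.Agent.Lib.P064.PP

/-- the family of the edge sets `W` of the graphs on `Fin n` that contain a copy of `H`; the ground
set is the set of the unordered pairs of distinct elements of `Fin n` -/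
noncomputable def containFam (n : ℕ) {V : Type*} (H : SimpleGraph V) :
    Finset (Finset {e : Sym2 (Fin n) // ¬ e.IsDiag}) :=
  univ.filter (fun W => 0 < (SimpleGraph.fromEdgeSet
    (Subtype.val '' (W : Set {e : Sym2 (Fin n) // ¬ e.IsDiag}))).copyCount H)

lemma mem_containFam (n : ℕ) {V : Type*} (H : SimpleGraph V) (W : Finset (EdgeT n)) :
    W ∈ containFam n H ↔ 0 < (toG W).copyCount H := by
  unfold containFam toG
  simp

/-- the copies of a subgraph `K` of `H` cover the family -/
lemma exists_cover (n : ℕ) {V : Type*} [Fintype V] (H : SimpleGraph V) (K : H.Subgraph) (p : ℝ)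
    (hp : 0 ≤ p) :
    ∃ 𝒢 : Finset (Finset (EdgeT n)), Covers 𝒢 (containFam n H) ∧
      cost 𝒢 p ≤ ((⊤ : SimpleGraph (Fin n)).copyCount K.coe : ℝ) * p ^ K.coe.edgeSet.ncard := by
  set 𝒢 : Finset (Finset (EdgeT n)) :=
    univ.image (fun τ : K.verts ↪ Fin n => embSet K.coe τ) with h𝒢
  refine ⟨𝒢, ?_, ?_⟩
  · intro W hW
    rw [mem_containFam, copyCount_pos] at hW
    obtain ⟨f⟩ := hW
    let τ : K.verts ↪ Fin n := ⟨fun v => f v.1, fun a b hab => Subtype.ext (f.injective hab)⟩
    refine ⟨embSet K.coe τ, Finset.mem_image_of_mem _ (Finset.mem_univ τ), ?_⟩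
    intro x hx
    rw [mem_embSet] at hx
    obtain ⟨e, he⟩ := x
    induction e with
    | _ a b =>
      rw [mem_edgeSet, SimpleGraph.map_adj] at hx
      obtain ⟨u, v, huv, hu, hv⟩ := hx
      have h1 : H.Adj u.1 v.1 := K.adj_sub huv
      have h2 : (toG W).Adj (f u.1) (f v.1) := f.toHom.map_adj h1
      have h3 : s(f u.1, f v.1) ∈ (toG W).edgeSet := h2
      rw [edgeSet_toG] at h3
      obtain ⟨y, hy, hy2⟩ := h3
      have h4 : y = ⟨s(a, b), he⟩ := by
        apply Subtype.ext
        show y.1 = s(a, b)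
        rw [hy2, ← hu, ← hv]
        rfl
      rw [← h4]
      exact hy
  · have hcard : ∀ S ∈ 𝒢, p ^ S.card = p ^ K.coe.edgeSet.ncard := by
      intro S hS
      obtain ⟨τ, -, rfl⟩ := Finset.mem_image.1 hS
      rw [embSet_card]
    unfold cost
    rw [Finset.sum_congr rfl hcard, Finset.sum_const, nsmul_eq_mul]
    refine mul_le_mul_of_nonneg_right ?_ (by positivity)
    have h1 : 𝒢.card ≤ (⊤ : SimpleGraph (Fin n)).copyCount K.coe := by
      rw [copyCount_eq_card_image_copyToSubgraph]
      let c : (K.verts ↪ Fin n) → Copy K.coe (⊤ : SimpleGraph (Fin n)) := fun τ =>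
        ⟨⟨τ, fun {a b} h => (top_adj _ _).2 (τ.injective.ne h.ne)⟩, τ.injective⟩
      refine (card_image_le_of_factor univ (fun τ : K.verts ↪ Fin n => embSet K.coe τ)
        (fun τ => (c τ).toSubgraph) ?_).trans ?_
      · intro τ _ τ' _ h
        ext x
        rw [mem_embSet, mem_embSet]
        obtain ⟨e, he⟩ := x
        induction e with
        | _ a b =>
          rw [mem_edgeSet, mem_edgeSet, SimpleGraph.map_adj, SimpleGraph.map_adj]
          have h2 : (c τ).toSubgraph.Adj a b ↔ (c τ').toSubgraph.Adj a b := by rw [h]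
          simp only [Copy.toSubgraph, Subgraph.map_adj, Relation.Map, Subgraph.top_adj] at h2
          exact h2
      · refine Finset.card_le_card ?_
        intro S hS
        obtain ⟨τ, -, rfl⟩ := Finset.mem_image.1 hS
        exact Finset.mem_image_of_mem _ (Finset.mem_univ _)
    exact_mod_cast h1

/-- a fractional cover has cost at least one at every `r` for which the uniformly random copy of
`H` is `r`-spread -/
lemma one_le_fracCost (n : ℕ) {V : Type*} [Fintype V] (H : SimpleGraph V)
    (hV : Fintype.card V ≤ n) (r : ℝ)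
    (hspread : ∀ U : Finset (EdgeT n),
      ∑ _σ ∈ (Finset.univ : Finset (V ↪ Fin n)).filter (fun σ => U ⊆ embSet H σ),
        (1 / (n.descFactorial (Fintype.card V) : ℝ)) ≤ r ^ U.card)
    (g : Finset (EdgeT n) → ℝ) (hg : IsFracCover g (containFam n H)) :
    1 ≤ fracCost g r := by
  have hDpos : 0 < n.descFactorial (Fintype.card V) := Nat.descFactorial_pos.2 hV
  have hDpos' : (0 : ℝ) < (n.descFactorial (Fintype.card V) : ℝ) := by exact_mod_cast hDpos
  set δ : ℝ := 1 / (n.descFactorial (Fintype.card V) : ℝ) with hδ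
  have hδ0 : 0 ≤ δ := by positivity
  have hone : ∑ _σ : V ↪ Fin n, δ = 1 := by
    rw [Finset.sum_const, Finset.card_univ, Fintype.card_embedding_eq, Fintype.card_fin,
      nsmul_eq_mul, hδ]
    field_simp
  have h1 : ∀ σ : V ↪ Fin n, δ ≤ δ * ∑ S : Finset (EdgeT n), if S ⊆ embSet H σ then g S else 0 := by
    intro σ
    have hmem : embSet H σ ∈ containFam n H := by
      rw [mem_containFam]
      exact copyCount_pos_of_embSet_subset H σ _ (Finset.Subset.refl _)
    have h2 := hg.covers _ hmem
    have h3 : ∑ S ∈ (embSet H σ).powerset, g S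
        = ∑ S : Finset (EdgeT n), if S ⊆ embSet H σ then g S else 0 := by
      rw [← Finset.sum_filter]
      refine Finset.sum_congr ?_ (fun _ _ => rfl)
      ext S
      simp
    rw [h3] at h2
    nlinarith
  calc (1 : ℝ) = ∑ _σ : V ↪ Fin n, δ := hone.symm
    _ ≤ ∑ σ : V ↪ Fin n, δ * ∑ S : Finset (EdgeT n), if S ⊆ embSet H σ then g S else 0 :=
        Finset.sum_le_sum (fun σ _ => h1 σ)
    _ = ∑ S : Finset (EdgeT n), g S *
          ∑ σ ∈ (Finset.univ : Finset (V ↪ Fin n)).filter (fun σ => S ⊆ embSet H σ), δ := by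
        simp only [Finset.mul_sum]
        rw [Finset.sum_comm]
        refine Finset.sum_congr rfl (fun S _ => ?_)
        rw [Finset.sum_filter]
        refine Finset.sum_congr rfl (fun σ _ => ?_)
        split_ifs <;> ring
    _ ≤ ∑ S : Finset (EdgeT n), g S * r ^ S.card :=
        Finset.sum_le_sum (fun S _ => mul_le_mul_of_nonneg_left (hspread S) (hg.nonneg S))
    _ = fracCost g r := rfl

lemma fracCost_mono {X : Type*} [Fintype X] (g : Finset X → ℝ) (hg : ∀ S, 0 ≤ g S) (r p : ℝ)
    (hr : 0 ≤ r) (hrp : r ≤ p) : fracCost g r ≤ fracCost g p :=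
  Finset.sum_le_sum (fun S _ => mul_le_mul_of_nonneg_left (pow_le_pow_left₀ hr hrp _) (hg S))

/-- from a counting statement with loss `C` to Talagrand's comparison with constant `4 C` -/
theorem small_of_closed (n : ℕ) {V : Type*} [Fintype V] (H : SimpleGraph V)
    (hV : Fintype.card V ≤ n) (C : ℝ) (hC : 0 < C)
    (hcl : ∀ q : ℝ, 0 ≤ q → q ≤ 1 → (∀ K : H.Subgraph,
      1 ≤ ((⊤ : SimpleGraph (Fin n)).copyCount K.coe : ℝ) * q ^ K.coe.edgeSet.ncard) →
      ∀ K : H.Subgraph, (H.copyCount K.coe : ℝ)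
      ≤ ((⊤ : SimpleGraph (Fin n)).copyCount K.coe : ℝ) * (min 1 (C * q)) ^ K.coe.edgeSet.ncard)
    (g : Finset (EdgeT n) → ℝ) (hg : IsFracCover g (containFam n H))
    (p : ℝ) (hp0 : 0 ≤ p) (hcost : fracCost g p ≤ 1 / 2) :
    IsSmall (containFam n H) (p / (4 * C)) := by
  by_contra hns
  set p' := p / (4 * C) with hp'
  have hp'0 : 0 ≤ p' := by positivity
  have hexp : ∀ K : H.Subgraph, 1 / 2 ≤ expCopies n p' K.coe := by
    intro K
    rw [expCopies_eq]
    by_contra hlt
    rw [not_le] at hlt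
    obtain ⟨𝒢, h1, h2⟩ := exists_cover n H K p' hp'0
    exact hns ⟨𝒢, h1, h2.trans hlt.le⟩
  have hq := closed_of_mem n H hV p' hp'0 hexp
  have hB := hcl (min 1 (2 * p')) (le_min zero_le_one (by positivity)) (min_le_left _ _) hq
  set p'' := min 1 (C * min 1 (2 * p')) with hp''
  have hp''0 : 0 ≤ p'' := le_min zero_le_one (mul_nonneg hC.le (le_min zero_le_one (by positivity)))
  have htilde : ∀ K : H.Subgraph, (H.copyCount K.coe : ℝ) / 2
      ≤ ((⊤ : SimpleGraph (Fin n)).copyCount K.coe : ℝ) * p'' ^ K.coe.edgeSet.ncard := by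
    intro K
    have h1 := hB K
    have h2 : (0 : ℝ) ≤ (H.copyCount K.coe : ℝ) := Nat.cast_nonneg _
    linarith
  have hsp := spread_of_tilde H hV p'' hp''0 htilde
  have h1 := one_le_fracCost n H hV (2 * p'') hsp g hg
  have h2 : 2 * p'' ≤ p := by
    have h3 : p'' ≤ C * min 1 (2 * p') := min_le_right _ _
    have h4 : min 1 (2 * p') ≤ 2 * p' := min_le_right _ _
    have h5 : C * min 1 (2 * p') ≤ C * (2 * p') := mul_le_mul_of_nonneg_left h4 hC.le
    have h6 : C * (2 * p') = p / 2 := by
      rw [hp']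
      field_simp
      ring
    linarith
  have h3 := fracCost_mono g hg.nonneg (2 * p'') p (by positivity) h2
  linarith

theorem small_of_forest (n : ℕ) {V : Type*} [Fintype V] (H : SimpleGraph V) (hHa : H.IsAcyclic)
    (hV : Fintype.card V ≤ n)
    (g : Finset (EdgeT n) → ℝ) (hg : IsFracCover g (containFam n H))
    (p : ℝ) (hp0 : 0 ≤ p) (hcost : fracCost g p ≤ 1 / 2) :
    IsSmall (containFam n H) (p / 1030000) := by
  have h257 : (0 : ℝ) < 257500 := by norm_num
  have h := small_of_closed n H hV 257500 h257 (fun q hq0 hq1 hH K => by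
    refine (Forest.forest_closed n H hHa hV q hq0 hq1 hH K.coe).trans ?_
    refine mul_le_mul_of_nonneg_left ?_ (Nat.cast_nonneg _)
    have hLt : 0 < Forest.Lt := by
      have := Forest.Lc_pos
      unfold Forest.Lt
      positivity
    refine pow_le_pow_left₀ (le_min zero_le_one (by positivity)) ?_ _
    exact min_le_min le_rfl (mul_le_mul_of_nonneg_right Forest.Lt_exp_le hq0)) g hg p hp0 hcost
  have e : (4 : ℝ) * 257500 = 1030000 := by norm_num
  rwa [e] at h

theorem small_of_bddDegree (n : ℕ) {V : Type*} [Fintype V] (H : SimpleGraph V)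
    (hV : Fintype.card V ≤ n) (D : ℕ) (hD0 : 1 ≤ D) (hD : ∀ v, (H.neighborSet v).ncard ≤ D)
    (g : Finset (EdgeT n) → ℝ) (hg : IsFracCover g (containFam n H))
    (p : ℝ) (hp0 : 0 ≤ p) (hcost : fracCost g p ≤ 1 / 2) :
    IsSmall (containFam n H) (p / (324 * D)) := by
  have hD0' : (1 : ℝ) ≤ D := by exact_mod_cast hD0
  have h := small_of_closed n H hV (81 * D) (by positivity)
    (fun q hq0 _ hH K => bddDegree_closed n H hV q hq0 hH D hD K.coe) g hg p hp0 hcost
  have e : (4 : ℝ) * (81 * D) = 324 * D := by ring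
  rwa [e] at h

end Vale.Agent.Lib.P034
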