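import Mathlib

/-!
Definitions for P034 (integral versus fractional expectation thresholds).
Families of subsets of `X` are `Finset (Finset X)`.
-/

namespace Vale.Agent.Lib.P034

open Finset

/-- `G` covers `F`: every member of `F` contains some member of `G`. -/
def Covers {X : Type*} (G F : Finset (Finset X)) : Prop :=
  ∀ H ∈ F, ∃ S ∈ G, S ⊆ H

/-- The cost `c_p(G) = ∑_{S ∈ G} p ^ |S|` of a family `G` at `p`. -/
noncomputable def cost {X : Type*} (G : Finset (Finset X)) (p : ℝ) : ℝ :=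
  ∑ S ∈ G, p ^ S.card

/-- `F` is `p`-small: some cover of `F` has cost at most `1/2` at `p`. -/
def IsSmall {X : Type*} (F : Finset (Finset X)) (p : ℝ) : Prop :=
  ∃ G : Finset (Finset X), Covers G F ∧ cost G p ≤ 1 / 2

/-- `g : 2^X → [0,1]` is a fractional cover of `F`:
`∑_{S ⊆ H} g S ≥ 1` for every `H ∈ F`. -/
structure IsFracCover {X : Type*} (g : Finset X → ℝ) (F : Finset (Finset X)) : Prop where
  nonneg : ∀ S, 0 ≤ g S
  le_one : ∀ S, g S ≤ 1
  covers : ∀ H ∈ F, 1 ≤ ∑ S ∈ H.powerset, g S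

/-- The cost `w(g,p) = ∑_{S ⊆ X} g S * p ^ |S|` of a fractional cover at `p`. -/
noncomputable def fracCost {X : Type*} [Fintype X] (g : Finset X → ℝ) (p : ℝ) : ℝ :=
  ∑ S : Finset X, g S * p ^ S.card

end Vale.Agent.Lib.P034
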