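import Vale.Agent.Lib.P034.Connected

/-!
Fractional covers whose support hypergraph has bounded degree: every point lies in at most `D`
sets of nonzero weight.  Each support set is threaded on a path (in the order of a fixed ranking of
the ground set); the union of these paths is a graph of maximum degree at most `2 D` in which every
support set is connected.
-/

namespace Vale.Agent.Lib.P034

open Finset

section deg

set_option linter.unusedSectionVars false

variable {X : Type*} [Fintype X] [DecidableEq X]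

/-- `y` is the successor of `x` inside `S` for the ranking `r`. -/
def Consec (r : X → ℕ) (S : Finset X) (x y : X) : Prop :=
  x ∈ S ∧ y ∈ S ∧ r x < r y ∧ ∀ z ∈ S, ¬ (r x < r z ∧ r z < r y)

lemma Consec.succ_unique {r : X → ℕ} (hr : Function.Injective r) {S : Finset X} {x y y' : X}
    (h : Consec r S x y) (h' : Consec r S x y') : y = y' := by
  obtain ⟨_, hy, hxy, hmin⟩ := h
  obtain ⟨_, hy', hxy', hmin'⟩ := h'
  apply hr
  have h1 : ¬ (r y < r y') := fun hlt => hmin' y hy ⟨hxy, hlt⟩
  have h2 : ¬ (r y' < r y) := fun hlt => hmin y' hy' ⟨hxy', hlt⟩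
  omega

lemma Consec.pred_unique {r : X → ℕ} (hr : Function.Injective r) {S : Finset X} {x x' y : X}
    (h : Consec r S x y) (h' : Consec r S x' y) : x = x' := by
  obtain ⟨hx, _, hxy, hmin⟩ := h
  obtain ⟨hx', _, hxy', hmin'⟩ := h'
  apply hr
  have h1 : ¬ (r x < r x') := fun hlt => hmin x' hx' ⟨hlt, hxy'⟩
  have h2 : ¬ (r x' < r x) := fun hlt => hmin' x hx ⟨hlt, hxy⟩
  omega

/-- the union of the paths threading the support sets of `g`. -/
def chainGraph (r : X → ℕ) (g : Finset X → ℝ) : SimpleGraph X :=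
  SimpleGraph.fromRel (fun x y => ∃ S, g S ≠ 0 ∧ Consec r S x y)

lemma chainGraph_adj {r : X → ℕ} {g : Finset X → ℝ} {x y : X} :
    (chainGraph r g).Adj x y ↔ ∃ S, g S ≠ 0 ∧ (Consec r S x y ∨ Consec r S y x) := by
  unfold chainGraph
  rw [SimpleGraph.fromRel_adj]
  constructor
  · rintro ⟨_, ⟨S, hS, h⟩ | ⟨S, hS, h⟩⟩
    · exact ⟨S, hS, Or.inl h⟩
    · exact ⟨S, hS, Or.inr h⟩
  · rintro ⟨S, hS, h | h⟩
    · refine ⟨?_, Or.inl ⟨S, hS, h⟩⟩
      rintro rfl
      exact lt_irrefl _ h.2.2.1
    · refine ⟨?_, Or.inr ⟨S, hS, h⟩⟩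
      rintro rfl
      exact lt_irrefl _ h.2.2.1

lemma chainGraph_degree_le (r : X → ℕ) (hr : Function.Injective r) (g : Finset X → ℝ) (D : ℕ)
    (hdeg : ∀ x : X, (Finset.univ.filter (fun S : Finset X => g S ≠ 0 ∧ x ∈ S)).card ≤ D)
    [DecidableRel (chainGraph r g).Adj] (x : X) : (chainGraph r g).degree x ≤ 2 * D := by
  classical
  rw [← SimpleGraph.card_neighborFinset_eq_degree]
  have hsub : (chainGraph r g).neighborFinset x ⊆
      (Finset.univ.filter (fun S : Finset X => g S ≠ 0 ∧ x ∈ S)).biUnion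
        (fun S => Finset.univ.filter (fun y => Consec r S x y) ∪
          Finset.univ.filter (fun y => Consec r S y x)) := by
    intro y hy
    rw [SimpleGraph.mem_neighborFinset, chainGraph_adj] at hy
    obtain ⟨S, hS, h⟩ := hy
    rw [Finset.mem_biUnion]
    refine ⟨S, ?_, ?_⟩
    · rw [Finset.mem_filter]
      refine ⟨Finset.mem_univ _, hS, ?_⟩
      rcases h with h | h
      · exact h.1
      · exact h.2.1
    · rw [Finset.mem_union, Finset.mem_filter, Finset.mem_filter]
      rcases h with h | h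
      · exact Or.inl ⟨Finset.mem_univ _, h⟩
      · exact Or.inr ⟨Finset.mem_univ _, h⟩
  refine le_trans (Finset.card_le_card hsub) ?_
  refine le_trans (Finset.card_biUnion_le_card_mul _ _ 2 ?_) ?_
  · intro S _
    refine le_trans (Finset.card_union_le _ _) ?_
    have h1 : (Finset.univ.filter (fun y => Consec r S x y)).card ≤ 1 := by
      rw [Finset.card_le_one]
      intro a ha b hb
      exact Consec.succ_unique hr (Finset.mem_filter.mp ha).2 (Finset.mem_filter.mp hb).2
    have h2 : (Finset.univ.filter (fun y => Consec r S y x)).card ≤ 1 := by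
      rw [Finset.card_le_one]
      intro a ha b hb
      exact Consec.pred_unique hr (Finset.mem_filter.mp ha).2 (Finset.mem_filter.mp hb).2
    omega
  · have := hdeg x
    omega

lemma exists_pred (r : X → ℕ) (S : Finset X) (m v : X) (hm : m ∈ S) (hv : v ∈ S)
    (hlt : r m < r v) : ∃ u, Consec r S u v := by
  classical
  have hne : (S.filter (fun z => r z < r v)).Nonempty := ⟨m, Finset.mem_filter.mpr ⟨hm, hlt⟩⟩
  obtain ⟨u, hu, hmax⟩ := Finset.exists_max_image _ r hne
  obtain ⟨huS, huv⟩ := Finset.mem_filter.mp hu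
  refine ⟨u, huS, hv, huv, ?_⟩
  rintro z hz ⟨h1, h2⟩
  have := hmax z (Finset.mem_filter.mpr ⟨hz, h2⟩)
  omega

lemma chainGraph_connected (r : X → ℕ) (hr : Function.Injective r) (g : Finset X → ℝ)
    (S : Finset X) (hS : g S ≠ 0) (hne : S.Nonempty) :
    ((chainGraph r g).induce (S : Set X)).Connected := by
  classical
  obtain ⟨m, hm, hmin⟩ := Finset.exists_min_image S r hne
  rw [SimpleGraph.connected_iff_exists_forall_reachable]
  refine ⟨⟨m, Finset.mem_coe.mpr hm⟩, ?_⟩
  have key : ∀ n : ℕ, ∀ v : X, ∀ hv : v ∈ S, r v = n →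
      ((chainGraph r g).induce (S : Set X)).Reachable ⟨m, Finset.mem_coe.mpr hm⟩
        ⟨v, Finset.mem_coe.mpr hv⟩ := by
    intro n
    induction n using Nat.strong_induction_on with
    | _ n ih =>
      intro v hv hvn
      by_cases hmv : m = v
      · subst hmv
        exact SimpleGraph.Reachable.refl _
      · have hlt : r m < r v := by
          have h1 := hmin v hv
          have h2 : r m ≠ r v := fun h => hmv (hr h)
          omega
        obtain ⟨u, hu⟩ := exists_pred r S m v hm hv hlt
        have h1 := ih (r u) (by have := hu.2.2.1; omega) u hu.1 rfl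
        refine h1.trans (SimpleGraph.Adj.reachable ?_)
        rw [SimpleGraph.induce_adj]
        exact chainGraph_adj.mpr ⟨S, hS, Or.inl hu⟩
  rintro ⟨v, hv⟩
  exact key (r v) v (Finset.mem_coe.mp hv) rfl

theorem degree_main (D : ℕ) (hD : 1 ≤ D)
    (F : Finset (Finset X)) (g : Finset X → ℝ) (hg : IsFracCover g F)
    (hdeg : ∀ x : X, (Finset.univ.filter (fun S : Finset X => g S ≠ 0 ∧ x ∈ S)).card ≤ D)
    (p : ℝ) (hp0 : 0 ≤ p) (hp1 : p ≤ 1) (hcost : fracCost g p ≤ 1 / 2) :
    IsSmall F (p / (24 * (D : ℝ) ^ 2)) := by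
  classical
  let r : X → ℕ := fun x => (Fintype.equivFin X x : ℕ)
  have hr : Function.Injective r := by
    intro a b hab
    exact (Fintype.equivFin X).injective (Fin.ext hab)
  have h := connected_main (chainGraph r g) (2 * D) (by omega)
    (fun v => chainGraph_degree_le r hr g D hdeg v) F g hg
    (fun S hS => by
      rcases S.eq_empty_or_nonempty with h | h
      · exact Or.inl h
      · exact Or.inr (chainGraph_connected r hr g S hS h)) p hp0 hp1 hcost
  have e : (6 * (((2 * D : ℕ) : ℝ)) ^ 2) = 24 * (D : ℝ) ^ 2 := by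
    push_cast; ring
  rw [e] at h
  exact h

end deg

end Vale.Agent.Lib.P034
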